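import Vale.Agent.Lib.P046.Defs

/-!
# P046: counting lemmas and the drift inequality
-/

namespace Vale.Agent.Lib.P046

open Finset

variable {n : ℕ}

theorem mem_tri {E : St n} {t : Finset (Fin n)} : t ∈ tri E ↔ t.card = 3 ∧ ed t ⊆ E := by
  unfold tri
  rw [mem_filter, mem_powersetCard]
  constructor
  · rintro ⟨⟨_, h⟩, h'⟩; exact ⟨h, h'⟩
  · rintro ⟨h, h'⟩; exact ⟨⟨subset_univ _, h⟩, h'⟩

theorem card_ed {t : Finset (Fin n)} (h : t.card = 3) : (ed t).card = 3 := by
  unfold ed
  rw [card_powersetCard, h]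
  rfl

theorem card_ed_inter_le {t t' : Finset (Fin n)} (h : t.card = 3) (h' : t'.card = 3)
    (hne : t' ≠ t) : (ed t ∩ ed t').card ≤ 1 := by
  have hsub : ed t ∩ ed t' ⊆ (t ∩ t').powersetCard 2 := by
    intro s hs
    rw [mem_inter] at hs
    unfold ed at hs
    rw [mem_powersetCard, mem_powersetCard] at hs
    rw [mem_powersetCard]
    exact ⟨subset_inter hs.1.1 hs.2.1, hs.1.2⟩
  have hlt : (t ∩ t').card ≤ 2 := by
    by_contra hcon
    push Not at hcon
    have h3 : (t ∩ t').card = 3 := by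
      have := card_le_card (inter_subset_left : t ∩ t' ⊆ t)
      omega
    have e1 : t ∩ t' = t := eq_of_subset_of_card_le inter_subset_left (by omega)
    have e2 : t ∩ t' = t' := eq_of_subset_of_card_le inter_subset_right (by omega)
    exact hne (e2.symm.trans e1)
  calc (ed t ∩ ed t').card ≤ ((t ∩ t').powersetCard 2).card := card_le_card hsub
    _ = (t ∩ t').card.choose 2 := card_powersetCard _ _
    _ ≤ 1 := by
      generalize (t ∩ t').card = k at hlt
      interval_cases k <;> decide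

theorem tri_sdiff (E : St n) (t : Finset (Fin n)) :
    tri (E \ ed t) = (tri E).filter (fun t' => Disjoint (ed t') (ed t)) := by
  ext t'
  rw [mem_filter, mem_tri, mem_tri, subset_sdiff]
  tauto

/-- the number of triangles of `E` containing the edge `e` -/
def codeg (E : St n) (e : Finset (Fin n)) : ℕ := ((tri E).filter (fun t => e ∈ ed t)).card

theorem sum_codeg_ed_le {E : St n} {t : Finset (Fin n)} (ht : t ∈ tri E) :
    ∑ e ∈ ed t, codeg E e + (tri (E \ ed t)).card ≤ (tri E).card + 2 := by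
  have h3 := (mem_tri.1 ht).1
  have e1 : ∑ e ∈ ed t, codeg E e = ∑ t' ∈ tri E, (ed t ∩ ed t').card := by
    unfold codeg
    simp only [card_filter]
    rw [sum_comm]
    refine sum_congr rfl fun t' _ => ?_
    rw [← card_filter, filter_mem_eq_inter]
  have e2 : ∀ t' ∈ tri E, (ed t ∩ ed t').card + (if Disjoint (ed t') (ed t) then 1 else 0)
      ≤ 1 + (if t' = t then 2 else 0) := by
    intro t' ht'
    by_cases hd : Disjoint (ed t') (ed t)
    · rw [if_pos hd]
      have : ed t ∩ ed t' = ∅ := by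
        rw [inter_comm]; exact disjoint_iff_inter_eq_empty.1 hd
      rw [this]
      simp
    · rw [if_neg hd]
      by_cases hq : t' = t
      · rw [if_pos hq, hq, inter_self, card_ed h3]
      · rw [if_neg hq]
        exact card_ed_inter_le h3 (mem_tri.1 ht').1 hq
  have e3 := sum_le_sum e2
  rw [sum_add_distrib, sum_add_distrib, ← card_filter, ← tri_sdiff, sum_ite_eq' (tri E) t,
    if_pos ht] at e3
  rw [e1]
  simpa using e3

theorem sum_sum_codeg (E : St n) (g : Finset (Fin n) → ℕ) :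
    ∑ t ∈ tri E, ∑ e ∈ ed t, g e = ∑ e ∈ E, codeg E e * g e := by
  have h1 : ∀ t ∈ tri E, ∑ e ∈ ed t, g e = ∑ e ∈ E, (if e ∈ ed t then g e else 0) := by
    intro t ht
    rw [← sum_filter]
    refine sum_congr ?_ fun _ _ => rfl
    ext e
    rw [mem_filter]
    exact ⟨fun h => ⟨(mem_tri.1 ht).2 h, h⟩, fun h => h.2⟩
  rw [sum_congr rfl h1, sum_comm]
  refine sum_congr rfl fun e _ => ?_
  unfold codeg
  rw [← sum_filter, sum_const, smul_eq_mul]

theorem sum_codeg (E : St n) : ∑ e ∈ E, codeg E e = 3 * (tri E).card := by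
  have h := sum_sum_codeg E (fun _ => 1)
  simp only [mul_one, sum_const, smul_eq_mul] at h
  rw [← h, mul_comm, ← smul_eq_mul, ← sum_const]
  exact sum_congr rfl fun t ht => card_ed (mem_tri.1 ht).1

/-- summed drift inequality (natural numbers, no division):
`9 T^2 + |E| * sum_t T(E - t) ≤ |E| * (T^2 + 2 T)` -/
theorem drift_nat (E : St n) :
    9 * (tri E).card ^ 2 + E.card * ∑ t ∈ tri E, (tri (E \ ed t)).card
      ≤ E.card * ((tri E).card ^ 2 + 2 * (tri E).card) := by
  have h1 : ∑ t ∈ tri E, (∑ e ∈ ed t, codeg E e + (tri (E \ ed t)).card)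
      ≤ ∑ _t ∈ tri E, ((tri E).card + 2) := sum_le_sum fun t ht => sum_codeg_ed_le ht
  rw [sum_add_distrib, sum_sum_codeg, sum_const, smul_eq_mul] at h1
  have h2 : (∑ e ∈ E, codeg E e) ^ 2 ≤ E.card * ∑ e ∈ E, codeg E e ^ 2 :=
    sq_sum_le_card_mul_sum_sq
  rw [sum_codeg] at h2
  have h3 : ∑ e ∈ E, codeg E e * codeg E e = ∑ e ∈ E, codeg E e ^ 2 :=
    sum_congr rfl fun e _ => (sq _).symm
  rw [h3] at h1
  nlinarith [h1, h2, Nat.zero_le E.card]

end Vale.Agent.Lib.P046
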