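import Mathlib

/-!
# P046: the random triangle removal process (definitions)

A graph on the vertex set `Fin n` is given by its set of edges, an edge being a two-element set of
vertices. A triangle is a three-element set of vertices all of whose two-element subsets are edges.
-/

namespace Vale.Agent.Lib.P046

open Finset

/-- A state of the process: the set of edges (two-element vertex sets) still present. -/
abbrev St (n : ℕ) : Type := Finset (Finset (Fin n))

/-- The three edges of a triple of vertices. -/
def ed {n : ℕ} (t : Finset (Fin n)) : St n := t.powersetCard 2

/-- The triangles of the graph with edge set `E`. -/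
def tri {n : ℕ} (E : St n) : Finset (Finset (Fin n)) :=
  ((univ : Finset (Fin n)).powersetCard 3).filter (fun t => ed t ⊆ E)

/-- The edge set of the complete graph `K_n`. -/
def complete (n : ℕ) : St n := (univ : Finset (Fin n)).powersetCard 2

/-- One step of the process, as an operator on observables: `stepE f E` is the conditional
expectation of `f` at the next state given that the current state is `E`: the average of
`f (E minus the three edges of t)` over all triangles `t` of `E`; if `E` has no triangle the
process has stopped and the state stays `E`. -/
noncomputable def stepE {n : ℕ} (f : St n → ℝ) (E : St n) : ℝ :=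
  if tri E = ∅ then f E else (∑ t ∈ tri E, f (E \ ed t)) / ((tri E).card : ℝ)

/-- `expect n i f`: the expectation of `f (G_i)`, where `G_0 = K_n, G_1, G_2, ...` is the random
triangle removal process. -/
noncomputable def expect (n i : ℕ) (f : St n → ℝ) : ℝ := (stepE^[i] f) (complete n)

/-- number of triangles, as a real observable -/
def Tf {n : ℕ} (E : St n) : ℝ := ((tri E).card : ℝ)

/-- the cubic `x (x - 3) (x - 6)` -/
def Pc (x : ℝ) : ℝ := x * (x - 3) * (x - 6)

end Vale.Agent.Lib.P046
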