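import Vale.Agent.Lib.P046.Count

/-!
# P046: the drift inequality in expectation form and the envelope for the triangle count
-/

namespace Vale.Agent.Lib.P046

open Finset

variable {n : ℕ}

theorem card_sdiff_ed {E : St n} {t : Finset (Fin n)} (ht : t ∈ tri E) :
    (E \ ed t).card + 3 = E.card := by
  have h := card_sdiff_add_card_eq_card (mem_tri.1 ht).2
  rw [card_ed (mem_tri.1 ht).1] at h
  exact h

theorem stepE_of_empty (g : St n → ℝ) {E : St n} (h : tri E = ∅) : stepE g E = g E := by
  unfold stepE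
  rw [if_pos h]

theorem stepE_of_ne (g : St n → ℝ) {E : St n} (h : tri E ≠ ∅) :
    stepE g E = (∑ t ∈ tri E, g (E \ ed t)) / ((tri E).card : ℝ) := by
  unfold stepE
  rw [if_neg h]

theorem iterate_stop (g : St n → ℝ) {E : St n} (h : tri E = ∅) (j : ℕ) :
    (stepE^[j] g) E = g E := by
  induction j with
  | zero => rfl
  | succ j ih => rw [Function.iterate_succ_apply', stepE_of_empty _ h, ih]

/-- the drift inequality: given the current graph `E` (with at least one triangle), the expected
number of triangles after the next removal is at most `T - 9 T / |E| + 2` -/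
theorem drift {E : St n} (h : tri E ≠ ∅) :
    stepE Tf E ≤ Tf E - 9 * Tf E / (E.card : ℝ) + 2 := by
  obtain ⟨t0, ht0⟩ := nonempty_iff_ne_empty.2 h
  have hT : (0 : ℝ) < ((tri E).card : ℝ) := by
    exact_mod_cast card_pos.2 ⟨t0, ht0⟩
  have he : (0 : ℝ) < (E.card : ℝ) := by
    have := card_sdiff_ed ht0
    have h3 : 0 < E.card := by omega
    exact_mod_cast h3
  have hd := drift_nat E
  have hd' : 9 * ((tri E).card : ℝ) ^ 2 + (E.card : ℝ) * ∑ t ∈ tri E, Tf (E \ ed t)
      ≤ (E.card : ℝ) * (((tri E).card : ℝ) ^ 2 + 2 * ((tri E).card : ℝ)) := by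
    unfold Tf
    exact_mod_cast hd
  rw [stepE_of_ne _ h]
  unfold Tf at hd' ⊢
  generalize ((tri E).card : ℝ) = T at *
  generalize (E.card : ℝ) = e at *
  generalize (∑ t ∈ tri E, (((tri (E \ ed t)).card : ℕ) : ℝ)) = S at *
  rw [div_le_iff₀ hT]
  have : (T - 9 * T / e + 2) * T = (e * (T ^ 2 + 2 * T) - 9 * T ^ 2) / e := by
    field_simp
    ring
  rw [this, le_div_iff₀ he]
  nlinarith

theorem Pc_pos {x : ℝ} (h : 6 < x) : 0 < Pc x := by
  unfold Pc
  have h1 : 0 < x := by linarith
  have h2 : 0 < x - 3 := by linarith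
  have h3 : 0 < x - 6 := by linarith
  positivity

theorem Pc_nonneg {x : ℝ} (h : 6 ≤ x) : 0 ≤ Pc x := by
  unfold Pc
  have h1 : 0 ≤ x := by linarith
  have h2 : 0 ≤ x - 3 := by linarith
  have h3 : 0 ≤ x - 6 := by linarith
  positivity

/-- the envelope, from an arbitrary starting graph -/
theorem envelope (j : ℕ) : ∀ E : St n, 3 * j + 9 ≤ E.card →
    (stepE^[j] Tf) E ≤ (Tf E - (E.card : ℝ) / 3) * (Pc ((E.card : ℝ) - 3 * j) / Pc (E.card : ℝ))
      + ((E.card : ℝ) - 3 * j) / 3 := by
  induction j with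
  | zero =>
    intro E hE
    have he : (9 : ℝ) ≤ (E.card : ℝ) := by exact_mod_cast (by omega : 9 ≤ E.card)
    have hP : Pc (E.card : ℝ) ≠ 0 := (Pc_pos (by linarith)).ne'
    simp only [Function.iterate_zero, id_eq, Nat.cast_zero, mul_zero, sub_zero]
    rw [div_self hP]
    linarith
  | succ j ih =>
    intro E hE
    have he : (3 : ℝ) * j + 12 ≤ (E.card : ℝ) := by
      have : 3 * j + 12 ≤ E.card := by omega
      exact_mod_cast this
    have hj : (0 : ℝ) ≤ (j : ℝ) := Nat.cast_nonneg j
    push_cast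
    by_cases h : tri E = ∅
    · rw [iterate_stop _ h]
      have hT : Tf E = 0 := by unfold Tf; rw [h]; simp
      rw [hT]
      generalize (E.card : ℝ) = e at *
      have hP : 0 < Pc e := Pc_pos (by linarith)
      have key : e * Pc (e - 3 * (j + 1)) ≤ (e - 3 * (j + 1)) * Pc e := by
        unfold Pc
        have a1 : 0 ≤ e - 3 * (j + 1) := by linarith
        have a2 : 0 ≤ e := by linarith
        have a3 : (e - 3 * (j + 1) - 3) * (e - 3 * (j + 1) - 6) ≤ (e - 3) * (e - 6) := by
          nlinarith
        nlinarith [mul_le_mul_of_nonneg_left a3 (mul_nonneg a2 a1)]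
      have : e / 3 * (Pc (e - 3 * (j + 1)) / Pc e) ≤ (e - 3 * (j + 1)) / 3 := by
        rw [← mul_div_assoc, div_le_iff₀ hP]
        nlinarith
      linarith
    · rw [Function.iterate_succ_apply', stepE_of_ne _ h]
      obtain ⟨t0, ht0⟩ := nonempty_iff_ne_empty.2 h
      have hTpos : (0 : ℝ) < ((tri E).card : ℝ) := by
        exact_mod_cast card_pos.2 ⟨t0, ht0⟩
      have hdr := drift h
      rw [stepE_of_ne _ h] at hdr
      have hstep : ∀ t ∈ tri E, (stepE^[j] Tf) (E \ ed t)
          ≤ (Tf (E \ ed t) - ((E.card : ℝ) - 3) / 3)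
              * (Pc ((E.card : ℝ) - 3 - 3 * j) / Pc ((E.card : ℝ) - 3))
            + ((E.card : ℝ) - 3 - 3 * j) / 3 := by
        intro t ht
        have hc := card_sdiff_ed ht
        have hc' : ((E \ ed t).card : ℝ) = (E.card : ℝ) - 3 := by
          have : ((E \ ed t).card : ℝ) + 3 = (E.card : ℝ) := by exact_mod_cast hc
          linarith
        have := ih (E \ ed t) (by omega)
        rw [hc'] at this
        exact this
      have hsum := sum_le_sum hstep
      rw [sum_add_distrib, ← sum_mul, sum_sub_distrib, sum_const, sum_const, nsmul_eq_mul,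
        nsmul_eq_mul] at hsum
      unfold Tf at hdr hsum ⊢
      generalize (∑ t ∈ tri E, (stepE^[j] fun E => (((tri E).card : ℕ) : ℝ)) (E \ ed t)) = A at *
      generalize (∑ t ∈ tri E, (((tri (E \ ed t)).card : ℕ) : ℝ)) = S at *
      generalize ((tri E).card : ℝ) = T at *
      generalize (E.card : ℝ) = e at *
      have hP3 : 0 < Pc (e - 3) := Pc_pos (by linarith)
      have hP : 0 < Pc e := Pc_pos (by linarith)
      have hPy : 0 ≤ Pc (e - 3 - 3 * j) := Pc_nonneg (by linarith)
      have hρ : 0 ≤ Pc (e - 3 - 3 * j) / Pc (e - 3) := div_nonneg hPy hP3.le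
      have hy : e - 3 * (j + 1) = e - 3 - 3 * j := by ring
      rw [hy]
      have hid : (1 - 9 / e) * (Pc (e - 3 - 3 * j) / Pc (e - 3)) = Pc (e - 3 - 3 * j) / Pc e := by
        have he0 : e ≠ 0 := by
          have : 0 < e := by linarith
          exact this.ne'
        have h9 : e - 9 ≠ 0 := by
          have : 0 < e - 9 := by linarith
          exact this.ne'
        have e1 : Pc (e - 3) = Pc e * ((e - 9) / e) := by
          unfold Pc
          field_simp
          ring
        rw [e1]
        have hPne := hP.ne'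
        field_simp
      generalize Pc (e - 3 - 3 * j) / Pc (e - 3) = ρ at *
      rw [← hid]
      have h1 : A / T ≤ (S / T - (e - 3) / 3) * ρ + (e - 3 - 3 * j) / 3 := by
        rw [div_le_iff₀ hTpos]
        have : ((S / T - (e - 3) / 3) * ρ + (e - 3 - 3 * j) / 3) * T
            = (S - T * ((e - 3) / 3)) * ρ + T * ((e - 3 - 3 * j) / 3) := by
          field_simp
        rw [this]
        exact hsum
      have h2 : (S / T - (e - 3) / 3) * ρ ≤ (T - 9 * T / e + 2 - (e - 3) / 3) * ρ :=
        mul_le_mul_of_nonneg_right (by linarith) hρ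
      have h3 : (T - 9 * T / e + 2 - (e - 3) / 3) = (T - e / 3) * (1 - 9 / e) := by
        have he0 : e ≠ 0 := by
          have : 0 < e := by linarith
          exact this.ne'
        field_simp
        ring
      rw [h3] at h2
      calc A / T ≤ (S / T - (e - 3) / 3) * ρ + (e - 3 - 3 * j) / 3 := h1
        _ ≤ (T - e / 3) * (1 - 9 / e) * ρ + (e - 3 - 3 * j) / 3 := by linarith
        _ = (T - e / 3) * ((1 - 9 / e) * ρ) + (e - 3 - 3 * j) / 3 := by ring

end Vale.Agent.Lib.P046
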