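import Vale.Agent.Lib.P046.Envelope

/-!
# P046: the process as a Markov chain of probability mass functions
-/

namespace Vale.Agent.Lib.P046

open Finset

/-- expectation of a real observable under a probability mass function on a finite type -/
noncomputable def EX {α : Type} [Fintype α] (p : PMF α) (f : α → ℝ) : ℝ :=
  ∑ a, (p a).toReal * f a

theorem EX_pure {α : Type} [Fintype α] [DecidableEq α] (a : α) (f : α → ℝ) :
    EX (PMF.pure a) f = f a := by
  unfold EX
  rw [sum_eq_single a]
  · simp
  · intro b _ hb
    simp [PMF.pure_apply, hb]
  · intro h; exact absurd (mem_univ a) h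

theorem EX_bind {α β : Type} [Fintype α] [Fintype β] (p : PMF α) (k : α → PMF β) (f : β → ℝ) :
    EX (p.bind k) f = EX p (fun a => EX (k a) f) := by
  unfold EX
  have h1 : ∀ b, ((p.bind k) b).toReal = ∑ a, (p a).toReal * (k a b).toReal := by
    intro b
    rw [PMF.bind_apply, tsum_fintype, ENNReal.toReal_sum]
    · exact sum_congr rfl fun a _ => ENNReal.toReal_mul
    · intro a _
      exact ENNReal.mul_ne_top (PMF.apply_ne_top _ _) (PMF.apply_ne_top _ _)
  simp only [h1, sum_mul, mul_sum]
  rw [sum_comm]
  exact sum_congr rfl fun a _ => sum_congr rfl fun b _ => by ring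

theorem EX_uniform {α : Type} [Fintype α] [DecidableEq α] (s : Finset α) (hs : s.Nonempty)
    (g : α → ℝ) : EX (PMF.uniformOfFinset s hs) g = (∑ a ∈ s, g a) / (s.card : ℝ) := by
  unfold EX
  have h1 : ∀ a, ((PMF.uniformOfFinset s hs) a).toReal * g a
      = if a ∈ s then g a / (s.card : ℝ) else 0 := by
    intro a
    rw [PMF.uniformOfFinset_apply]
    by_cases ha : a ∈ s
    · rw [if_pos ha, if_pos ha, ENNReal.toReal_inv, ENNReal.toReal_natCast]
      field_simp
    · rw [if_neg ha, if_neg ha]
      simp
  simp only [h1]
  rw [← sum_filter, sum_div]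
  refine sum_congr ?_ fun _ _ => rfl
  ext a
  simp

variable {n : ℕ}

open Classical in
/-- the transition kernel: a uniformly random triangle of the current graph is chosen and its three
edges are deleted; a graph without triangles stays as it is -/
noncomputable def kernel (E : St n) : PMF (St n) :=
  if h : (tri E).Nonempty then
    (PMF.uniformOfFinset (tri E) h).bind (fun t => PMF.pure (E \ ed t))
  else PMF.pure E

/-- the law of the graph `G_i` after `i` steps of the process started from `K_n` -/
noncomputable def law (n : ℕ) : ℕ → PMF (St n)
  | 0 => PMF.pure (complete n)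
  | i + 1 => (law n i).bind kernel

theorem EX_kernel (E : St n) (f : St n → ℝ) : EX (kernel E) f = stepE f E := by
  unfold kernel
  by_cases h : (tri E).Nonempty
  · rw [dif_pos h, EX_bind, EX_uniform, stepE_of_ne _ (nonempty_iff_ne_empty.1 h)]
    congr 1
    exact sum_congr rfl fun t _ => EX_pure _ _
  · rw [dif_neg h, EX_pure, stepE_of_empty _ (not_nonempty_iff_eq_empty.1 h)]

theorem EX_law (i : ℕ) : ∀ f : St n → ℝ, EX (law n i) f = (stepE^[i] f) (complete n) := by
  induction i with
  | zero => intro f; exact EX_pure _ _
  | succ i ih =>
    intro f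
    show EX ((law n i).bind kernel) f = _
    rw [EX_bind, Function.iterate_succ_apply]
    have : (fun a => EX (kernel a) f) = stepE f := funext fun a => EX_kernel a f
    rw [this, ih]

theorem card_complete (n : ℕ) : (complete n).card = n.choose 2 := by
  unfold complete
  rw [card_powersetCard, card_univ, Fintype.card_fin]

theorem card_tri_complete (n : ℕ) : (tri (complete n)).card = n.choose 3 := by
  have : tri (complete n) = (univ : Finset (Fin n)).powersetCard 3 := by
    unfold tri
    rw [filter_eq_self]
    intro t _
    unfold ed complete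
    exact powersetCard_mono (subset_univ t)
  rw [this, card_powersetCard, card_univ, Fintype.card_fin]

end Vale.Agent.Lib.P046
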